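import Vale.Agent.P323.H70.Size
import Vale.Agent.P323.H894.Col

/-!
# P323, section 11, totality: the colour surgery which selects the least good index
-/

namespace P323.H70

open CategoryTheory Vale.Agent.P323.Z Vale.Agent.P323.H894 Set

variable {D : Type 1} [Category.{1} D]

/-- the colouring which decides a set of points -/
noncomputable def decCol {x : D} (T : Set (Dn x)) (p : Col x) : Col x := by
  classical
  exact Col.union p (fun z => if z ∈ T then some true else none)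

theorem le_decCol {x : D} (T : Set (Dn x)) (p : Col x) : Col.Le p (decCol T p) :=
  le_union_left _ _

theorem decCol_dec {x : D} (T : Set (Dn x)) (p : Col x) {z : Dn x} (hz : z ∈ T) :
    ∃ c, decCol T p z = some c := by
  classical
  unfold decCol Col.union
  cases h : p z with
  | some c => exact ⟨c, rfl⟩
  | none => exact ⟨true, by simp [hz]⟩

theorem sm_decCol {x : D} (T : Set (Dn x)) (hT : Small.{0} T) {p : Col x} (hp : Col.Sm p) :
    Col.Sm (decCol T p) := by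
  classical
  unfold decCol
  refine sm_union hp ?_
  unfold Col.Sm
  refine small_of_injective (β := T) (f := fun z => ⟨z.1, ?_⟩) ?_
  · by_contra h
    exact z.2 (by simp [h])
  · intro a b hab
    exact Subtype.ext (congrArg (fun t => t.1) hab)

variable [TwBase D]

/-- The core of totality. `f i` (`i ∈ I`, an unbounded set of ordinals) is a family of maps
`Z1.x ⟶ B.x` which agree with `eQ` along `u : a ⟶ Z.x` and are jointly separated outside `u ≫ k`.
Given a morphism `e1 : B ⟶ W` there is a recolouring of `W` and an index `i ∈ I` such that `f i`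
preserves the colours for the colour pulled back to `B.x`, and every smaller `j ∈ I` has an
incompatible pull-back. -/
theorem exists_least_good {Z Z1 B W : CObj D} (k : Z ⟶ Z1) (hk : Cons k) {A : D} (u : A ⟶ Z.x)
    (eQ : Z ⟶ B) (I : Set Ordinal.{0}) (hI : ∀ o, ∃ i ∈ I, o ≤ i)
    (f : Ordinal.{0} → (Z1.x ⟶ B.x)) (hf : ∀ i ∈ I, u ≫ k.u ≫ f i = u ≫ eQ.u)
    (e1 : B ⟶ W)
    (hsep : ∀ i ∈ I, ∀ j ∈ I, ∀ {d : D} (s t : d ⟶ Z1.x), s ≫ f i ≫ e1.u = t ≫ f j ≫ e1.u →
      ¬ Thru s (u ≫ k.u) → ¬ Thru t (u ≫ k.u) → i = j) :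
    ∃ (q : Col W.x) (_ : Col.Le W.p q) (_ : Col.Sm q), ∃ i ∈ I,
      Col.Le Z1.p (Col.pull (f i) (Col.pull e1.u q)) ∧
      ∀ j ∈ I, j < i → ¬ Col.Compat (Col.pull (f j) (Col.pull e1.u q)) Z1.p := by
  classical
  -- the bad indices
  let Bad : Set Ordinal.{0} := {i | i ∈ I ∧ ∃ s : Dn Z1.x, ¬ Thru s.2 (u ≫ k.u) ∧
    W.p (Dn.post (f i ≫ e1.u) s) ≠ none}
  have hBad : Small.{0} Bad := by
    have hch : ∀ i : Bad, ∃ s : Dn Z1.x, ¬ Thru s.2 (u ≫ k.u) ∧
      W.p (Dn.post (f i.1 ≫ e1.u) s) ≠ none := fun i => i.2.2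
    choose S hS1 hS2 using hch
    have := W.sm
    refine small_of_injective (β := {z // W.p z ≠ none})
      (f := fun i => ⟨Dn.post (f i.1 ≫ e1.u) (S i), hS2 i⟩) ?_
    intro i j hij
    have h1 : Dn.post (f i.1 ≫ e1.u) (S i) = Dn.post (f j.1 ≫ e1.u) (S j) :=
      congrArg (fun t => t.1) hij
    apply Subtype.ext
    have h2 := hS1 i
    have h3 := hS1 j
    revert h1 h2 h3
    generalize S i = s
    generalize S j = t
    obtain ⟨d, s⟩ := s
    obtain ⟨d', t⟩ := t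
    intro h1 h2 h3
    simp only [Dn.post, Sigma.mk.injEq] at h1
    obtain ⟨rfl, h1⟩ := h1
    exact hsep i.1 i.2.1 j.1 j.2.1 s t (eq_of_heq h1) h2 h3
  obtain ⟨o, ho⟩ := exists_bound hBad
  obtain ⟨i1, hi1, hoi⟩ := hI o
  have hfree : ∀ s : Dn Z1.x, W.p (Dn.post (f i1 ≫ e1.u) s) ≠ none → Thru s.2 (u ≫ k.u) := by
    intro s hs
    by_contra h
    exact absurd (ho i1 ⟨hi1, s, h, hs⟩) (not_lt.2 hoi)
  -- the first extension
  let c3 : Col W.x := Col.union W.p (Col.push (f i1 ≫ e1.u) Z1.p)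
  have hcomp : Col.Compat W.p (Col.push (f i1 ≫ e1.u) Z1.p) := by
    intro z c c' hz hz'
    obtain ⟨s, rfl, hs⟩ := (Col.push_eq_some _ _ _ _).1 hz'
    obtain ⟨d, s⟩ := s
    have hth : Thru s (u ≫ k.u) := hfree ⟨d, s⟩ (by rw [hz]; simp)
    obtain ⟨g, rfl⟩ := hth
    have h1 : Z.p ⟨d, g ≫ u⟩ = some c' := by
      have h2 : Col.pull k.u Z1.p ⟨d, g ≫ u⟩ = some c' := by
        simpa [Col.pull, Dn.post] using hs
      rw [show Col.pull k.u Z1.p = Z.p from hk] at h2
      exact h2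
    have h3 := CHom.le (eQ ≫ e1) _ _ h1
    have h4 : Dn.post (f i1 ≫ e1.u) ⟨d, g ≫ u ≫ k.u⟩ = Dn.post (eQ ≫ e1).u ⟨d, g ≫ u⟩ := by
      simp only [Dn.post, comp_u]
      congr 1
      have h5 := hf i1 hi1
      calc (g ≫ u ≫ k.u) ≫ f i1 ≫ e1.u = g ≫ (u ≫ k.u ≫ f i1) ≫ e1.u := by
            simp only [Category.assoc]
        _ = (g ≫ u) ≫ eQ.u ≫ e1.u := by rw [h5]; simp only [Category.assoc]
    rw [h4] at hz
    have h6 : W.p (Dn.post (eQ ≫ e1).u ⟨d, g ≫ u⟩) = some c' := h3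
    rw [hz] at h6
    exact Option.some.inj h6
  have hc3 : Col.Sm c3 := sm_union W.sm (sm_push _ Z1.sm)
  -- decide
  let T : Set (Dn W.x) := range (fun x : Iic i1 × {z // Z1.p z ≠ none} =>
    Dn.post (f x.1.1 ≫ e1.u) x.2.1)
  have hT : Small.{0} T := by
    have := Z1.sm
    exact small_range _
  let q : Col W.x := decCol T c3
  have hq1 : Col.Le W.p q := (le_union_left _ _).trans (le_decCol _ _)
  have hgood : Col.Le Z1.p (Col.pull (f i1) (Col.pull e1.u q)) := by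
    rw [← Col.pull_comp, ← push_le_iff]
    exact (le_union_right hcomp).trans (le_decCol _ _)
  let P : Set Ordinal.{0} := {i | i ∈ I ∧ Col.Le Z1.p (Col.pull (f i) (Col.pull e1.u q))}
  have hP : P.Nonempty := ⟨i1, hi1, hgood⟩
  have hwf : WellFounded (fun a b : Ordinal.{0} => a < b) := wellFounded_lt
  refine ⟨q, hq1, sm_decCol T hT hc3, hwf.min P hP, (hwf.min_mem P hP).1,
    (hwf.min_mem P hP).2, ?_⟩
  intro j hj hji hcon
  have hle : j ≤ i1 := le_of_lt (lt_of_lt_of_le hji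
    (not_lt.1 (hwf.not_lt_min P (x := i1) ⟨hi1, hgood⟩)))
  have hjP : j ∉ P := fun h => hwf.not_lt_min P h hji
  apply hjP
  refine ⟨hj, ?_⟩
  intro s c hs
  have hmem : Dn.post (f j ≫ e1.u) s ∈ T :=
    ⟨(⟨j, hle⟩, ⟨s, by rw [hs]; simp⟩), rfl⟩
  obtain ⟨c', hc'⟩ := decCol_dec T c3 hmem
  have h1 : Col.pull (f j) (Col.pull e1.u q) s = some c' := by
    rw [← Col.pull_comp]
    exact hc'
  rw [h1, hcon s c' c h1 hs]

end P323.H70
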