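import Mathlib

/-!
# P323: size lemmas for `Type 1` against `Ordinal.{0}`
-/

namespace P323.H70

open Cardinal Ordinal Set

universe u

/-- `Ordinal.{u}` is infinite. -/
theorem aleph0_le_ord : ℵ₀ ≤ #(Ordinal.{u}) := by
  have h : Infinite Ordinal.{u} := Infinite.of_injective (fun n : ℕ => (n : Ordinal.{u}))
    (fun a b h => Nat.cast_injective h)
  exact Cardinal.aleph0_le_mk _

theorem small_iff {T : Type (u + 1)} : Small.{u} T ↔ #T < #(Ordinal.{u}) := by
  rw [Cardinal.small_iff_lift_mk_lt_univ.{u+1, u}, Cardinal.mk_ordinal]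
  simp

/-- A small type in `Type (u+1)` has cardinality below that of `Ordinal.{u}`. -/
theorem mk_lt_of_small (T : Type (u + 1)) [h : Small.{u} T] : #T < #(Ordinal.{u}) :=
  small_iff.1 h

/-- (a) A type with a birth map to the ordinals and small fibres. -/
theorem mk_le_of_birth {T : Type (u + 1)} (birth : T → Ordinal.{u})
    (h : ∀ i, Small.{u} {t // birth t = i}) : #T ≤ #(Ordinal.{u}) := by
  have e : (Σ i, {t // birth t = i}) ≃ T := Equiv.sigmaFiberEquiv birth
  rw [← Cardinal.mk_congr e, Cardinal.mk_sigma]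
  calc Cardinal.sum (fun i => #{t // birth t = i})
      ≤ Cardinal.sum (fun _ : Ordinal.{u} => #(Ordinal.{u})) :=
        Cardinal.sum_le_sum _ _ fun i => le_of_lt (small_iff.1 (h i))
    _ = #(Ordinal.{u}) * #(Ordinal.{u}) := by simp
    _ = #(Ordinal.{u}) := Cardinal.mul_eq_self aleph0_le_ord

/-- Injection form of a cardinality bound. -/
theorem exists_injective_of_mk_le {T : Type (u + 1)} (h : #T ≤ #(Ordinal.{u})) :
    ∃ f : T → Ordinal.{u}, Function.Injective f := by
  obtain ⟨e⟩ := h
  exact ⟨e, e.injective⟩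

theorem mk_le_of_injective {T : Type (u + 1)} (f : T → Ordinal.{u})
    (hf : Function.Injective f) : #T ≤ #(Ordinal.{u}) :=
  Cardinal.mk_le_of_injective hf

theorem mk_le_of_injective' {T U : Type (u + 1)} (f : T → U)
    (hf : Function.Injective f) (hU : #U ≤ #(Ordinal.{u})) : #T ≤ #(Ordinal.{u}) :=
  (Cardinal.mk_le_of_injective hf).trans hU

/-- (b) Every nonempty `T` of size at most that of the ordinals is enumerated by ordinals with
all fibres unbounded. -/
theorem exists_asg {T : Type (u + 1)} [Nonempty T] (h : #T ≤ #(Ordinal.{u})) :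
    ∃ asg : Ordinal.{u} → T, ∀ (t : T) (a : Ordinal.{u}), ∃ b, a ≤ b ∧ asg b = t := by
  classical
  obtain ⟨f, hf⟩ := exists_injective_of_mk_le h
  have e : Ordinal.{u} ≃ Ordinal.{u} × Ordinal.{u} := by
    have : #(Ordinal.{u}) = #(Ordinal.{u} × Ordinal.{u}) := by
      rw [Cardinal.mk_prod]
      simp only [Cardinal.lift_id]
      exact (Cardinal.mul_eq_self aleph0_le_ord).symm
    exact Classical.choice (Cardinal.eq.1 this)
  refine ⟨fun b => Function.invFun f (e b).1, fun t a => ?_⟩
  by_contra hcon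
  push Not at hcon
  have hlt : ∀ x : Ordinal.{u}, e.symm (f t, x) < a := by
    intro x
    by_contra hx
    refine hcon _ (not_lt.1 hx) ?_
    simp [Function.leftInverse_invFun hf t]
  have hinj : Function.Injective (fun x : Ordinal.{u} => (⟨e.symm (f t, x), hlt x⟩ : Iio a)) := by
    intro x y hxy
    have h1 : e.symm (f t, x) = e.symm (f t, y) := congrArg Subtype.val hxy
    simpa using h1
  have hs : Small.{u} (Iio a) := inferInstance
  have hs' : Small.{u} Ordinal.{u} := small_of_injective hinj
  exact absurd (small_iff.1 hs') (lt_irrefl _)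

/-- Bounded iff small, one direction: a small set of ordinals is bounded. -/
theorem exists_bound {s : Set Ordinal.{u}} (hs : Small.{u} s) : ∃ a, ∀ b ∈ s, b < a := by
  obtain ⟨a, ha⟩ := Ordinal.bddAbove_of_small (s := s)
  exact ⟨Order.succ a, fun b hb => Order.lt_succ_of_le (ha hb)⟩

/-- A small family of ordinals is bounded. -/
theorem exists_bound_range {T : Type*} [Small.{u} T] (f : T → Ordinal.{u}) :
    ∃ a, ∀ t, f t < a := by
  obtain ⟨a, ha⟩ := exists_bound (s := range f) inferInstance
  exact ⟨a, fun t => ha _ ⟨t, rfl⟩⟩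

theorem not_small_ordinal : ¬ Small.{u} Ordinal.{u} := fun h =>
  absurd (small_iff.1 h) (lt_irrefl _)

/-- An unbounded set of ordinals is not small. -/
theorem not_small_of_unbounded {s : Set Ordinal.{u}} (hs : ∀ a, ∃ b ∈ s, a ≤ b) :
    ¬ Small.{u} s := by
  intro h
  obtain ⟨a, ha⟩ := exists_bound h
  obtain ⟨b, hb, hab⟩ := hs a
  exact absurd (ha b hb) (not_lt.2 hab)

/-- (c) Small subsets of a type of size at most that of the ordinals. -/
theorem mk_small_sets_le {T : Type (u + 1)} (h : #T ≤ #(Ordinal.{u})) :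
    #{s : Set T // Small.{u} s} ≤ #(Ordinal.{u}) := by
  classical
  obtain ⟨f, hf⟩ := exists_injective_of_mk_le h
  have hb : ∀ s : {s : Set T // Small.{u} s}, ∃ a : Ordinal.{u}, ∀ t ∈ s.1, f t < a := by
    intro s
    have := s.2
    obtain ⟨a, ha⟩ := exists_bound_range (fun t : s.1 => f t.1)
    exact ⟨a, fun t ht => ha ⟨t, ht⟩⟩
  choose birth hbirth using hb
  refine mk_le_of_birth birth fun i => ?_
  have hsm : Small.{u} {t : T | f t < i} := by
    have hinj : Function.Injective
        (fun t : {t : T | f t < i} => (⟨f t.1, t.2⟩ : Iio i)) := by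
      intro x y hxy
      apply Subtype.ext
      apply hf
      exact congrArg Subtype.val hxy
    exact small_of_injective hinj
  have hinj2 : Function.Injective
      (fun s : {s : {s : Set T // Small.{u} s} // birth s = i} =>
        ({t : {t : T | f t < i} | t.1 ∈ s.1.1} : Set {t : T | f t < i})) := by
    intro s s' hss
    apply Subtype.ext
    apply Subtype.ext
    ext t
    constructor
    · intro ht
      have h1 : f t < i := s.2 ▸ hbirth s.1 t ht
      have : (⟨t, h1⟩ : {t : T | f t < i}) ∈
          ({t : {t : T | f t < i} | t.1 ∈ s.1.1} : Set {t : T | f t < i}) := ht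
      have h2 := (Set.ext_iff.1 hss ⟨t, h1⟩).1 this
      exact h2
    · intro ht
      have h1 : f t < i := s'.2 ▸ hbirth s'.1 t ht
      have : (⟨t, h1⟩ : {t : T | f t < i}) ∈
          ({t : {t : T | f t < i} | t.1 ∈ s'.1.1} : Set {t : T | f t < i}) := ht
      have h2 := (Set.ext_iff.1 hss ⟨t, h1⟩).2 this
      exact h2
  exact small_of_injective hinj2

theorem mk_prod_le {T U : Type (u + 1)} (hT : #T ≤ #(Ordinal.{u})) (hU : #U ≤ #(Ordinal.{u})) :
    #(T × U) ≤ #(Ordinal.{u}) := by
  rw [Cardinal.mk_prod]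
  simp only [Cardinal.lift_id]
  calc #T * #U ≤ #(Ordinal.{u}) * #(Ordinal.{u}) := mul_le_mul' hT hU
    _ = _ := Cardinal.mul_eq_self aleph0_le_ord

theorem mk_sigma_le {T : Type (u + 1)} {U : T → Type (u + 1)} (hT : #T ≤ #(Ordinal.{u}))
    (hU : ∀ t, #(U t) ≤ #(Ordinal.{u})) : #(Σ t, U t) ≤ #(Ordinal.{u}) := by
  rw [Cardinal.mk_sigma]
  calc Cardinal.sum (fun t => #(U t))
      ≤ Cardinal.sum (fun _ : T => #(Ordinal.{u})) := Cardinal.sum_le_sum _ _ hU
    _ = #T * #(Ordinal.{u}) := by simp
    _ ≤ #(Ordinal.{u}) * #(Ordinal.{u}) := mul_le_mul' hT le_rfl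
    _ = _ := Cardinal.mul_eq_self aleph0_le_ord

theorem mk_subtype_le' {T : Type (u + 1)} {P : T → Prop} (hT : #T ≤ #(Ordinal.{u})) :
    #{t : T // P t} ≤ #(Ordinal.{u}) :=
  (Cardinal.mk_subtype_le P).trans hT

theorem mk_le_of_small (T : Type (u + 1)) [Small.{u} T] : #T ≤ #(Ordinal.{u}) :=
  (mk_lt_of_small T).le

/-- (c') Partial functions with small domain, given as `T → Option U`. -/
theorem mk_small_partial_le {T U : Type (u + 1)} (hT : #T ≤ #(Ordinal.{u}))
    (hU : #U ≤ #(Ordinal.{u})) :
    #{f : T → Option U // Small.{u} {t | f t ≠ none}} ≤ #(Ordinal.{u}) := by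
  classical
  refine mk_le_of_injective' (U := {s : Set (T × U) // Small.{u} s})
    (fun f => ⟨{p | f.1 p.1 = some p.2}, ?_⟩) ?_ (mk_small_sets_le (mk_prod_le hT hU))
  · have := f.2
    have hinj : Function.Injective
        (fun p : {p : T × U | f.1 p.1 = some p.2} =>
          (⟨p.1.1, fun hn => by
            have h2 : f.1 p.1.1 = some p.1.2 := p.2
            rw [hn] at h2
            cases h2⟩ : {t | f.1 t ≠ none})) := by
      rintro ⟨⟨a, b⟩, hp⟩ ⟨⟨a', b'⟩, hp'⟩ h
      have h1 : a = a' := by simpa using h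
      subst h1
      have h2 : some b = some b' := hp.symm.trans hp'
      cases h2
      rfl
    exact small_of_injective hinj
  · intro f g hfg
    apply Subtype.ext
    funext t
    have hiff : ∀ v, f.1 t = some v ↔ g.1 t = some v := by
      intro v
      have := congrArg (fun s : {s : Set (T × U) // Small.{u} s} => (t, v) ∈ s.1) hfg
      simpa using this
    cases hf : f.1 t with
    | none =>
      cases hg : g.1 t with
      | none => rfl
      | some v => rw [← hf]; exact ((hiff v).2 hg).trans hg.symm |>.trans (hg)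
    | some v => exact ((hiff v).1 hf).symm

end P323.H70
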