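import Vale.Agent.P323.H70.Size

/-!
# P323: pressing down for unbounded sets of ordinals
-/

namespace P323.H70

open Cardinal Ordinal Set

universe u

/-- `d` is a nonzero limit of elements of `S`. -/
def LimOf (S : Set Ordinal.{u}) (d : Ordinal.{u}) : Prop :=
  0 < d ∧ ∀ a < d, ∃ b ∈ S, a < b ∧ b < d

/-- Above every ordinal there is a limit of `S` closed under a given function `G`. -/
theorem exists_limOf_closed {S : Set Ordinal.{u}} (hS : ∀ a, ∃ b ∈ S, a ≤ b)
    (G : Ordinal.{u} → Ordinal.{u}) (a0 : Ordinal.{u}) :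
    ∃ d, a0 ≤ d ∧ LimOf S d ∧ ∀ k < d, G k < d := by
  classical
  have hb : ∀ x : Ordinal.{u}, ∃ y, ∀ k : Iic x, G k.1 < y := fun x =>
    exists_bound_range (fun k : Iic x => G k.1)
  choose B hB using hb
  choose N hN hN' using hS
  let st : Ordinal.{u} → Ordinal.{u} := fun x => max (B x) (Order.succ (N (Order.succ x)))
  let x : ℕ → Ordinal.{u} := fun n => Nat.rec a0 (fun _ y => st y) n
  have hx1 : ∀ n, x (n + 1) = st (x n) := fun _ => rfl
  have hlt : ∀ n, x n < N (Order.succ (x n)) := fun n =>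
    lt_of_lt_of_le (Order.lt_succ (x n)) (hN' _)
  have hlt2 : ∀ n, N (Order.succ (x n)) < x (n + 1) := fun n => by
    rw [hx1]
    exact lt_of_lt_of_le (Order.lt_succ _) (le_max_right _ _)
  have hbd : BddAbove (range x) := Ordinal.bddAbove_of_small (s := range x)
  have hle : ∀ n, x n ≤ iSup x := fun n => le_ciSup hbd n
  have hls : ∀ n, x n < iSup x := fun n =>
    lt_of_lt_of_le ((hlt n).trans (hlt2 n)) (hle (n + 1))
  have hex : ∀ a < iSup x, ∃ n, a < x n := fun a ha => (lt_ciSup_iff hbd).1 ha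
  refine ⟨iSup x, hle 0, ⟨lt_of_le_of_lt zero_le (hls 0), ?_⟩, ?_⟩
  · intro a ha
    obtain ⟨n, hn⟩ := hex a ha
    exact ⟨N (Order.succ (x n)), hN _, hn.trans (hlt n),
      lt_of_lt_of_le (hlt2 n) (hle (n + 1))⟩
  · intro k hk
    obtain ⟨n, hn⟩ := hex k hk
    have h1 : G k < B (x n) := hB (x n) ⟨k, hn.le⟩
    have h2 : B (x n) ≤ x (n + 1) := by rw [hx1]; exact le_max_left _ _
    exact lt_of_lt_of_le (lt_of_lt_of_le h1 h2) (hle (n + 1))

/-- Pressing down: a regressive function on the limits of an unbounded set is bounded by one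
value on an unbounded set of limits. -/
theorem pressing_down {S : Set Ordinal.{u}} (hS : ∀ a, ∃ b ∈ S, a ≤ b)
    (f : Ordinal.{u} → Ordinal.{u}) (hf : ∀ d, LimOf S d → f d < d) :
    ∃ k, ∀ a, ∃ d, a ≤ d ∧ LimOf S d ∧ f d ≤ k := by
  by_contra hcon
  push Not at hcon
  choose G hG using hcon
  obtain ⟨d, -, hd, hcl⟩ := exists_limOf_closed hS G 0
  have h1 := hf d hd
  have h2 := hcl _ h1
  exact absurd (hG (f d) d h2.le hd) (lt_irrefl _)

/-- Pressing down in relational form: if every limit `d` of `S` (above `a0`) has some `k < d`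
with `P d k`, and `P d` is monotone in `k`, then one `k` works for unboundedly many `d`. -/
theorem pressing_down' {S : Set Ordinal.{u}} (hS : ∀ a, ∃ b ∈ S, a ≤ b)
    (a0 : Ordinal.{u}) (P : Ordinal.{u} → Ordinal.{u} → Prop)
    (hmono : ∀ d k k', k ≤ k' → P d k → P d k')
    (hP : ∀ d, a0 < d → LimOf S d → ∃ k < d, P d k) :
    ∃ k, ∀ a, ∃ d, a < d ∧ k < d ∧ LimOf S d ∧ P d k := by
  classical
  let f : Ordinal.{u} → Ordinal.{u} := fun d =>
    if h : a0 < d ∧ LimOf S d then (hP d h.1 h.2).choose else 0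
  have hf : ∀ d, LimOf S d → f d < d := by
    intro d hd
    by_cases h : a0 < d
    · have h' : a0 < d ∧ LimOf S d := ⟨h, hd⟩
      simp only [f, dif_pos h']
      exact (hP d h'.1 h'.2).choose_spec.1
    · have h' : ¬ (a0 < d ∧ LimOf S d) := fun h' => h h'.1
      simp only [f, dif_neg h']
      exact hd.1
  obtain ⟨k, hk⟩ := pressing_down hS f hf
  refine ⟨k, fun a => ?_⟩
  obtain ⟨d, hd1, hd2, hd3⟩ := hk (Order.succ (max a (max k a0)))
  have h1 : max a (max k a0) < d := Order.succ_le_iff.1 hd1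
  have h2 : a0 < d := lt_of_le_of_lt ((le_max_right _ _).trans (le_max_right _ _)) h1
  have h' : a0 < d ∧ LimOf S d := ⟨h2, hd2⟩
  refine ⟨d, lt_of_le_of_lt (le_max_left _ _) h1,
    lt_of_le_of_lt ((le_max_left _ _).trans (le_max_right _ _)) h1, hd2, ?_⟩
  refine hmono d _ _ hd3 ?_
  simp only [f, dif_pos h']
  exact (hP d h'.1 h'.2).choose_spec.2

/-- No unbounded set of ordinals injects into a small type. -/
theorem not_injOn_of_unbounded {S : Set Ordinal.{u}} (hS : ∀ a, ∃ b ∈ S, a ≤ b)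
    {T : Type*} [Small.{u} T] (f : Ordinal.{u} → T) : ¬ InjOn f S := by
  intro h
  have hinj : Function.Injective (fun x : S => f x.1) := by
    intro x y hxy
    exact Subtype.ext (h x.2 y.2 hxy)
  exact not_small_of_unbounded hS (small_of_injective hinj)

end P323.H70
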